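import Vale.Agent.P244.T.Inst

/-! P244 T/Basic (T2): elementary properties of `Reach`. Helper names start with `bas_`.
Plan. `same_of_data`: `ex_uniq` on `[0, min t₂ t₂']` (`IsSol.mono`). `Reach.uniq`, `Reach.lt`:
transport `Ex` by `Same.ex`, then `Ex.uniq` resp. `GoodRun.trans` for the run `⟨sol.mono, data, trap⟩`.
`Reach.zero`: `Data.same`; `Tr 1` at time `0` for `S0` from `GoodData.tr`, `Tr.weaken`.
`reach_start`: `ex_start` with `GoodData.cm 2`, restricted to `[0, min δ (τ₀ / 2)]`. -/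

namespace Vale.Agent.P244

open scoped ContDiff Topology
open Set Filter Real

variable {κ : Cst} {τ₀ : ℝ} {c x x' : Fin 3 → ℝ} {t t' : ℝ}

theorem same_of_data {S S' : St} {t₂ t₂' : ℝ} (h : S.Sol t₂) (h' : S'.Sol t₂') (e : S.τ₀ = S'.τ₀)
    (d : Data κ.δ S c) (d' : Data κ.δ S' c) {r : ℝ} (h0 : 0 ≤ r) (hr : r ≤ t₂) (hr' : r ≤ t₂') :
    Same S S' r ∧ EqOn (S.B r) (S'.B r) (Icc 0 1) := by
  have hA : EqOn (S.A 0) (S'.A 0) (Icc 0 1) := fun y hy => by rw [d.A hy, d'.A hy, e]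
  have hβ : EqOn (S.β 0) (S'.β 0) (Icc 0 1) := fun y hy => by rw [d.β hy, d'.β hy, e]
  obtain ⟨u1, u2, u3⟩ := ex_uniq (lt_min h.pos h'.pos)
    (h.sol.mono (Icc_subset_Icc_right (min_le_left _ _)))
    (h'.sol.mono (Icc_subset_Icc_right (min_le_right _ _))) hA hβ r ⟨h0, le_min hr hr'⟩
  exact ⟨⟨e, u1, u2, hA, hβ⟩, u3⟩

theorem Reach.rng (hκ : κ.Pos) (h : Reach κ τ₀ c t x) :
    c ∈ cube ∧ 0 ≤ t ∧ t < τ₀ ∧ x ∈ cube := by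
  obtain ⟨t₂, S, h0, h1, e, hS, d, tr, ex⟩ := h
  obtain ⟨a, x0, e0, b⟩ := tr t ⟨h0, le_rfl⟩
  refine ⟨d.cube, h0, e ▸ h1.trans hS.lt, ?_⟩
  rw [Ex.uniq hκ (hS.reg ⟨h0, h1.le⟩) a ex e0]
  exact b

theorem Reach.uniq (hκ : κ.Pos) (h : Reach κ τ₀ c t x) (h' : Reach κ τ₀ c t x') : x = x' := by
  obtain ⟨t₂, S, h0, h1, e, hS, d, tr, ex⟩ := h
  obtain ⟨t₂', S', -, h1', e', hS', d', tr', ex'⟩ := h'
  have sm := (same_of_data hS hS' (e.trans e'.symm) d d' h0 h1.le h1'.le).1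
  exact Ex.uniq hκ (hS'.reg ⟨h0, h1'.le⟩) (tr' t ⟨h0, le_rfl⟩).1
    (sm.ex hκ (h1.trans hS.lt) (tr t ⟨h0, le_rfl⟩).1 ex) ex'

theorem Reach.lt (hκ : κ.Pos) (hr : GoodRun κ τ₀) (h : Reach κ τ₀ c t x)
    (h' : Reach κ τ₀ c t' x') (ht : t < t') : ∀ j, |x j| < 1 := by
  obtain ⟨t₂, S, h0, h1, e, hS, d, tr, ex⟩ := h
  obtain ⟨t₂', S', -, h1', e', hS', d', tr', -⟩ := h'
  have sm := (same_of_data hS hS' (e.trans e'.symm) d d' h0 h1.le (ht.trans h1').le).1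
  exact hr.trans S' c t' e' ⟨hS'.mono (h0.trans_lt ht) h1'.le, d', tr'⟩ t ⟨h0, ht⟩ x
    (sm.ex hκ (h1.trans hS.lt) (tr t ⟨h0, le_rfl⟩).1 ex)

theorem Reach.down (h : Reach κ τ₀ c t x) (h0 : 0 ≤ t') (ht : t' ≤ t) :
    ∃ x', Reach κ τ₀ c t' x' := by
  obtain ⟨t₂, S, -, h1, e, hS, d, tr, -⟩ := h
  obtain ⟨-, x0, e0, -⟩ := tr t' ⟨h0, ht⟩
  exact ⟨x0, t₂, S, h0, ht.trans_lt h1, e, hS, d, tr.mono ht, e0⟩

theorem Reach.zero (hκ : κ.Pos) (hd : GoodData κ τ₀) (h : Reach κ τ₀ c t x)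
    (e : Ex κ (S0 κ.δ τ₀ c) 0 x') : Reach κ τ₀ c 0 x' := by
  obtain ⟨t₂, S, h0, h1, rfl, hS, d, tr, -⟩ := h
  have hp : 0 < S.τ₀ := hS.pos.trans hS.lt
  exact ⟨t₂, S, le_rfl, hS.pos, rfl, hS, d, tr.mono h0,
    d.same.symm.ex hκ hp (Tr.weaken hκ hp.le (hd.tr c d.cube)) e⟩

theorem reach_start (hκ : κ.Pos) (h0 : 0 < τ₀) (h1 : τ₀ ≤ 1) (hd : GoodData κ τ₀) (hc : c ∈ cube)
    (e : Ex κ (S0 κ.δ τ₀ c) 0 x) (hx : x ∈ cube) : Reach κ τ₀ c 0 x := by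
  obtain ⟨N, hN⟩ := hd.cm 2
  obtain ⟨δ, hδ, N', hs⟩ := ex_start N
  obtain ⟨A, β, B, u1, u2, u3, -⟩ := hs _ _ (hd.smooth c hc).1 (hd.smooth c hc).2 (hN c hc).1
    (hN c hc).2
  have hm : 0 < min δ (τ₀ / 2) := lt_min hδ (half_pos h0)
  have d : Data κ.δ ⟨A, β, B, τ₀⟩ c := ⟨hc, u2, u3⟩
  have tr : Tr κ (S0 κ.δ τ₀ c) 1 0 := Tr.weaken hκ h0.le (hd.tr c hc)
  have ex : Ex κ ⟨A, β, B, τ₀⟩ 0 x := d.same.symm.ex hκ h0 tr e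
  refine ⟨min δ (τ₀ / 2), ⟨A, β, B, τ₀⟩, le_rfl, hm, rfl,
    ⟨hm, (min_le_right _ _).trans_lt (half_lt_self h0), h1,
      u1.mono (Icc_subset_Icc_right (min_le_left _ _))⟩, d, fun r hr => ?_, ex⟩
  obtain rfl : r = 0 := le_antisymm hr.2 hr.1
  exact ⟨d.same.symm.tr hκ h0.le tr, x, ex, hx⟩

end Vale.Agent.P244
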