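import Vale.Agent.P244.T.Ext
import Vale.Agent.P244.T.Basic

/-! P244 T/Closed (T4): `Reach` is closed for times below `τ₀`. -/

namespace Vale.Agent.P244

open scoped ContDiff Topology
open Set Filter Real

theorem reach_closed {κ : Cst} {τ₀ : ℝ} (hκ : κ.Pos) (h1 : τ₀ ≤ 1) (hd : GoodData κ τ₀)
    (hr : GoodRun κ τ₀) {c x : ℕ → Fin 3 → ℝ} {t : ℕ → ℝ} {c' x' : Fin 3 → ℝ} {t' : ℝ}
    (h : ∀ n, Reach κ τ₀ (c n) (t n) (x n)) (hc : Tendsto c atTop (𝓝 c'))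
    (ht : Tendsto t atTop (𝓝 t')) (hx : Tendsto x atTop (𝓝 x')) (ht' : t' < τ₀) :
    Reach κ τ₀ c' t' x' := by
  obtain ⟨d, d0, N, hN⟩ := ext_unif hκ hd hr (T := (t' + τ₀) / 2) (by linarith)
  have t0 : 0 ≤ t' := ge_of_tendsto' ht fun n => ((h n).rng hκ).2.1
  obtain ⟨e, e0, ed, eτ⟩ : ∃ e : ℝ, 0 < e ∧ 2 * e ≤ d ∧ 2 * e ≤ τ₀ - t' :=
    ⟨min d (τ₀ - t') / 2, by have := lt_min d0 (sub_pos.2 ht'); linarith,
      by linarith [min_le_left d (τ₀ - t')], by linarith [min_le_right d (τ₀ - t')]⟩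
  obtain ⟨n₀, hn₀⟩ := eventually_atTop.1 (ht.eventually (Icc_mem_nhds
    (show t' - e < t' by linarith) (show t' < t' + e by linarith)))
  have hU : (hyperfilter ℕ : Filter ℕ) ≤ atTop := Nat.hyperfilter_le_atTop
  have hc' := ((tendsto_add_atTop_iff_nat n₀).2 hc).mono_left hU
  have ht2 := ((tendsto_add_atTop_iff_nat n₀).2 ht).mono_left hU
  have hx' := ((tendsto_add_atTop_iff_nat n₀).2 hx).mono_left hU
  have hn : ∀ n, t (n + n₀) ∈ Icc (t' - e) (t' + e) := fun n => hn₀ _ (Nat.le_add_left _ _)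
  choose S Sτ Ssol Sn Sd St Se using fun n =>
    hN _ _ _ (show t (n + n₀) ≤ (t' + τ₀) / 2 by linarith [(hn n).2]) (h (n + n₀))
  have tn0 : ∀ n, 0 ≤ t (n + n₀) := fun n => ((h _).rng hκ).2.1
  generalize hcc : (fun n => c (n + n₀)) = cc at hc'
  have sub : ∀ n, Icc 0 (t' + e) ⊆ Icc 0 (t (n + n₀) + d) := fun n =>
    Icc_subset_Icc_right (by linarith [(hn n).1])
  have pos : 0 < t' + e := by linarith
  have sol : ∀ n, IsSol (Icc 0 (t' + e)) (S n).A (S n).β (S n).B := fun n => (Ssol n).mono (sub n)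
  obtain ⟨A, β, B, hs, hu⟩ := ex_compact pos sol (fun n r hr => Sn n r (sub n hr)) (fun m => by
    obtain ⟨N₀, h₀⟩ := hd.cm m
    refine ⟨N₀, fun n => ⟨fun i hi y hy => ?_, fun i hi y hy => ?_⟩⟩
    · rw [dY_iter_congr (Sd n).A i hy, Sτ]
      exact (h₀ _ (Sd n).cube).1 i hi y hy
    · rw [dY_iter_congr (Sd n).β i hy, Sτ]
      exact (h₀ _ (Sd n).cube).2 i hi y hy) (hyperfilter ℕ)
  have cv : ∀ (s : ℕ → ℝ) (s' : ℝ), (∀ n, s n ∈ Icc 0 (t' + e)) → s' ∈ Icc 0 (t' + e) →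
      Tendsto s (hyperfilter ℕ) (𝓝 s') → Cv (hyperfilter ℕ) S s ⟨A, β, B, τ₀⟩ s' :=
    fun s s' a b l => cv_unif pos Sτ sol hs hu (Eventually.of_forall a) b l
  have cc' : c' ∈ cube := fun j => le_of_tendsto' ((tendsto_pi_nhds.1 hc j).abs) fun n =>
    ((h n).rng hκ).1 j
  have hβ : ∀ y ∈ Icc (0 : ℝ) 1, Tendsto (fun n => (S0 κ.δ τ₀ (c (n + n₀))).β 0 y)
      (hyperfilter ℕ) (𝓝 ((S0 κ.δ τ₀ c').β 0 y)) := fun y hy =>
    (hd.cont y hy c' cc').tendsto.comp (tendsto_nhdsWithin_iff.2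
      ⟨hcc ▸ hc', Eventually.of_forall fun n => (Sd n).cube⟩)
  have p0 := fun y hy => cv (fun _ => 0) 0 (fun _ => ⟨le_rfl, pos.le⟩) ⟨le_rfl, pos.le⟩
    tendsto_const_nhds _ le_rfl (fun _ => y) y (fun _ => hy) hy tendsto_const_nhds
  have trap : Trap κ ⟨A, β, B, τ₀⟩ t' := by
    intro s hs
    have l : Tendsto (fun n => min s (t (n + n₀))) (hyperfilter ℕ) (𝓝 s) := by
      have := (tendsto_const_nhds (x := s)).min ht2
      rwa [min_eq_left hs.2] at this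
    have m : ∀ n, min s (t (n + n₀)) ∈ Icc 0 (t (n + n₀)) := fun n =>
      ⟨le_min hs.1 (tn0 n), min_le_right _ _⟩
    have k := cv _ s (fun n => ⟨(m n).1, (min_le_left _ _).trans (by linarith [hs.2])⟩)
      ⟨hs.1, by linarith [hs.2]⟩ l
    have hlt : s < τ₀ := hs.2.trans_lt ht'
    have tr := tr_closed hκ k hlt.le (Eventually.of_forall fun n => (St n _ (m n)).1)
    choose z hz hz' using fun n => (St n _ (m n)).2
    obtain ⟨z', e1, e2⟩ := ex_lim hκ k hlt tr (Eventually.of_forall hz)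
    exact ⟨tr, z', e1, fun j => le_of_tendsto' ((tendsto_pi_nhds.1 e2 j).abs) fun n => hz' n j⟩
  refine ⟨t' + e, ⟨A, β, B, τ₀⟩, t0, by linarith, rfl, ⟨pos, show t' + e < τ₀ by linarith, h1, hs⟩,
    ⟨cc', fun y hy => ?_, fun y hy => ?_⟩, trap, ?_⟩
  · refine tendsto_nhds_unique (p0 y hy).A0 ?_
    have e1 : ∀ c, (S0 κ.δ τ₀ c).A 0 y = -(1 / 2) * (S0 κ.δ τ₀ c).β 0 y := fun c => by
      simp only [S0]
      ring
    rw [e1]
    refine ((hβ y hy).const_mul _).congr fun n => ?_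
    rw [(Sd n).A hy, Sτ, e1]
  · refine tendsto_nhds_unique (p0 y hy).β0 ((hβ y hy).congr fun n => ?_)
    rw [(Sd n).β hy, Sτ]
  · obtain ⟨z', e1, e2⟩ := ex_lim hκ (cv _ t' (fun n => ⟨tn0 n, (hn n).2⟩) ⟨t0, by linarith⟩ ht2)
      ht' (trap t' ⟨t0, le_rfl⟩).1 (Eventually.of_forall Se)
    rwa [tendsto_nhds_unique hx' e2]

end Vale.Agent.P244
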