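import Vale.Agent.P244.Good
import Vale.Agent.P244.Ex

/-! P244 block T (sub-lead helper83): definitions. -/

namespace Vale.Agent.P244

open scoped ContDiff Topology
open Set Filter Real

/-- The parameter cube. -/
def cube : Set (Fin 3 → ℝ) := {c | ∀ j, |c j| ≤ 1}

/-- The jets of `S n` at the points `(s n, y n)` converge to the jets of `S'` at `(s', y')`. -/
structure Pc {ι : Type} (F : Filter ι) (S : ι → St) (s y : ι → ℝ) (S' : St) (s' y' : ℝ) :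
    Prop where
  τ : ∀ n, (S n).τ₀ = S'.τ₀
  t : Tendsto s F (𝓝 s')
  z : Tendsto y F (𝓝 y')
  A : Tendsto (fun n => (S n).A (s n) (y n)) F (𝓝 (S'.A s' y'))
  A1 : Tendsto (fun n => dY (S n).A (s n) (y n)) F (𝓝 (dY S'.A s' y'))
  A2 : Tendsto (fun n => XX (XX (S n).A) (s n) (y n)) F (𝓝 (XX (XX S'.A) s' y'))
  β : Tendsto (fun n => (S n).β (s n) (y n)) F (𝓝 (S'.β s' y'))
  β1 : Tendsto (fun n => dY (S n).β (s n) (y n)) F (𝓝 (dY S'.β s' y'))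
  β2 : Tendsto (fun n => XX (XX (S n).β) (s n) (y n)) F (𝓝 (XX (XX S'.β) s' y'))
  A0 : Tendsto (fun n => (S n).A 0 (y n)) F (𝓝 (S'.A 0 y'))
  β0 : Tendsto (fun n => (S n).β 0 (y n)) F (𝓝 (S'.β 0 y'))

/-- Continuous convergence of the time slices `S n (s n)` to the time slice `S' s'`. -/
def Cv {ι : Type} (F : Filter ι) (S : ι → St) (s : ι → ℝ) (S' : St) (s' : ℝ) : Prop :=
  ∀ G ≤ F, ∀ (y : ι → ℝ) (y' : ℝ), (∀ n, y n ∈ Icc (0 : ℝ) 1) → y' ∈ Icc (0 : ℝ) 1 →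
    Tendsto y G (𝓝 y') → Pc G S s y S' s' y'

theorem Cv.mono {ι : Type} {F F' : Filter ι} {S : ι → St} {s : ι → ℝ} {S' : St} {s' : ℝ}
    (h : Cv F S s S' s') (hF : F' ≤ F) : Cv F' S s S' s' := fun G hG => h G (hG.trans hF)

/-- The time slices at time `t` are smooth. -/
def Reg (S : St) (t : ℝ) : Prop :=
  ContDiffOn ℝ ∞ (S.A t) (Icc 0 1) ∧ ContDiffOn ℝ ∞ (S.β t) (Icc 0 1)

/-- The slices of `S` and `S'` at the times `t` and `0` agree. -/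
structure Same (S S' : St) (t : ℝ) : Prop where
  τ : S.τ₀ = S'.τ₀
  A : EqOn (S.A t) (S'.A t) (Icc 0 1)
  β : EqOn (S.β t) (S'.β t) (Icc 0 1)
  A0 : EqOn (S.A 0) (S'.A 0) (Icc 0 1)
  β0 : EqOn (S.β 0) (S'.β 0) (Icc 0 1)

/-- The solution with parameter `c` is trapped up to time `t`, with exit values `x` there. -/
def Reach (κ : Cst) (τ₀ : ℝ) (c : Fin 3 → ℝ) (t : ℝ) (x : Fin 3 → ℝ) : Prop :=
  ∃ (t₂ : ℝ) (S : St), 0 ≤ t ∧ t < t₂ ∧ S.τ₀ = τ₀ ∧ S.Sol t₂ ∧ Data κ.δ S c ∧ Trap κ S t ∧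
    Ex κ S t x

theorem Cst.Pos.s3 {κ : Cst} (h : κ.Pos) : 0 < κ.s ^ 3 ∧ κ.s ^ 3 < 1 :=
  ⟨pow_pos h.s 3, pow_lt_one₀ h.s.le (by linarith [h.s']) (by norm_num)⟩

theorem St.Sol.mono {S : St} {t₁ t₂ : ℝ} (h : S.Sol t₂) (h0 : 0 < t₁) (h1 : t₁ ≤ t₂) : S.Sol t₁ :=
  ⟨h0, h1.trans_lt h.lt, h.le, h.sol.mono (Icc_subset_Icc_right h1)⟩

theorem St.Sol.reg {S : St} {t₂ t : ℝ} (h : S.Sol t₂) (ht : t ∈ Icc 0 t₂) : Reg S t :=
  ⟨h.sol.smA.slice ht, h.sol.smβ.slice ht⟩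

theorem Trap.mono {κ : Cst} {S : St} {t s : ℝ} (h : Trap κ S t) (hs : s ≤ t) : Trap κ S s :=
  fun r hr => h r ⟨hr.1, hr.2.trans hs⟩

theorem Same.symm {S S' : St} {t : ℝ} (h : Same S S' t) : Same S' S t :=
  ⟨h.τ.symm, h.A.symm, h.β.symm, h.A0.symm, h.β0.symm⟩

theorem Data.same {δ : ℝ} {S : St} {c : Fin 3 → ℝ} (h : Data δ S c) :
    Same S (S0 δ S.τ₀ c) 0 := ⟨rfl, h.A, h.β, h.A, h.β⟩

theorem sg_pos {S : St} {t : ℝ} (ht : t ≤ S.τ₀) (y : ℝ) : 0 < S.sg t y :=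
  add_pos_of_nonneg_of_pos (sub_nonneg.2 ht) (exp_pos _)

end Vale.Agent.P244
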