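import Vale.Agent.P244.T.Defs

/-! P244 T/Level: level points exist and are unique. Helper names start with `lev_`.
Plan. `S.KK t` has derivative `exp (2 A + β) * kk / 2` within `Icc 0 1` (the slices are differentiable,
`dY u t y = derivWithin (u t) (Icc 0 1) y`); `kk ≥ 1` on `[0, s ^ 3]` by `TrI.k`;
`strictMonoOn_of_hasDerivWithinAt_pos` or `strictMonoOn_of_deriv_pos`; `rho = KK ^ (2/3)`, `KK ≥ 0`,
`Real.rpow_lt_rpow`. Existence: `intermediate_value_Icc`, `rho t 0 = 0`. -/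

namespace Vale.Agent.P244

open scoped ContDiff Topology
open Set Filter Real

variable {S : St} {t : ℝ} {κ : Cst}

theorem lev_deriv (hr : Reg S t) {y : ℝ} (hy : y ∈ Icc (0 : ℝ) 1) :
    HasDerivWithinAt (S.KK t) (exp (2 * S.A t y + S.β t y) * S.kk t y / 2) (Icc 0 1) y := by
  have hA : HasDerivWithinAt (S.A t) (dY S.A t y) (Icc 0 1) y :=
    (hr.1.differentiableOn (by simp) y hy).hasDerivWithinAt
  have hβ : HasDerivWithinAt (S.β t) (dY S.β t y) (Icc 0 1) y :=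
    (hr.2.differentiableOn (by simp) y hy).hasDerivWithinAt
  have hv := (hasDerivWithinAt_id y (Icc (0 : ℝ) 1)).fun_mul
    ((hasDerivWithinAt_id y (Icc (0 : ℝ) 1)).const_sub 1)
  refine (hv.fun_mul ((hA.const_mul 2).fun_add hβ).exp).congr_deriv ?_
  simp only [St.kk, St.aa, St.bb, dX, id]
  ring

theorem lev_sub (hκ : κ.Pos) : Icc 0 (κ.s ^ 3) ⊆ Icc (0 : ℝ) 1 :=
  Icc_subset_Icc_right hκ.s3.2.le

theorem rho_mono (hκ : κ.Pos) (hr : Reg S t) (h : Tr κ S 1 t) :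
    StrictMonoOn (S.rho t) (Icc 0 (κ.s ^ 3)) := by
  have h1 : StrictMonoOn (S.KK t) (Icc 0 (κ.s ^ 3)) := by
    refine strictMonoOn_of_hasDerivWithinAt_pos (convex_Icc _ _)
      (fun y hy => ((lev_deriv hr (lev_sub hκ hy)).mono (lev_sub hκ)).continuousWithinAt)
      (fun y hy => (lev_deriv hr (lev_sub hκ (interior_subset hy))).mono
        (interior_subset.trans (lev_sub hκ))) fun y hy => ?_
    have h2 : 0 < S.kk t y := by linarith [(h.I y (interior_subset hy)).k]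
    positivity
  intro y hy z hz hyz
  exact rpow_lt_rpow (mul_nonneg (mul_nonneg hy.1 (sub_nonneg.2 (lev_sub hκ hy).2))
    (exp_pos _).le) (h1 hy hz hyz) (by norm_num)

theorem Ex.uniq (hκ : κ.Pos) (hr : Reg S t) (h : Tr κ S 1 t) {x x' : Fin 3 → ℝ} (e : Ex κ S t x)
    (e' : Ex κ S t x') : x = x' := by
  obtain ⟨a, ha, b, hb, h1, h2, rfl⟩ := e
  obtain ⟨a', ha', b', hb', h1', h2', rfl⟩ := e'
  rw [(rho_mono hκ hr h).injOn ha ha' (h1.trans h1'.symm),
    (rho_mono hκ hr h).injOn hb hb' (h2.trans h2'.symm)]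

theorem ex_exist (hκ : κ.Pos) (hr : Reg S t) (ht : t ≤ S.τ₀)
    (h : 2 * κ.η * (S.τ₀ - t) ≤ S.rho t (κ.s ^ 3)) : ∃ x, Ex κ S t x := by
  have hc : ContinuousOn (S.rho t) (Icc 0 (κ.s ^ 3)) :=
    ContinuousOn.rpow_const (f := S.KK t)
      (fun y hy => ((lev_deriv hr (lev_sub hκ hy)).mono (lev_sub hκ)).continuousWithinAt)
      fun _ _ => Or.inr (by norm_num)
  have h0 : S.rho t 0 = 0 := by simp [St.rho, St.KK]
  have h1 := mul_nonneg hκ.η.le (sub_nonneg.2 ht)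
  obtain ⟨a, ha, ea⟩ := intermediate_value_Icc hκ.s3.1.le hc
    (show κ.η * (S.τ₀ - t) ∈ _ from ⟨h0.le.trans h1, by linarith⟩)
  obtain ⟨b, hb, eb⟩ := intermediate_value_Icc hκ.s3.1.le hc
    (show 2 * κ.η * (S.τ₀ - t) ∈ _ from ⟨h0.le.trans (by linarith), h⟩)
  exact ⟨_, a, ha, b, hb, ea, eb, rfl⟩

end Vale.Agent.P244
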