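import Vale.Agent.P244.T.Quant
import Vale.Agent.P244.T.Level

/-! P244 T/ExLim: limits of exit values. Helper names start with `exl_`.
Plan. `ex_lim`: choose the level points `ya n, yb n ∈ Icc 0 (s ^ 3)` (default `0` where `Ex` fails),
limits along `U` by `IsCompact.ultrafilter_le_nhds`; `Pc.rho`, `Pc.rem`, `tendsto_nhds_unique` give the
level equations; `Pc.exv` (`kk ≥ 1` by `TrI.k`, `rho = η (τ₀ - s') > 0`), `Tendsto.congr'`.
`ex_open`: eventually `s n ≤ τ₀` and the level condition holds (`Cv` at the constant point `s ^ 3`), so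
`ex_exist` gives `x n`. If the claim fails take an ultrafilter `U ≤ F` on which it fails; `ex_lim` and
`Ex.uniq` give `x n → x'` along `U`, so eventually `|x n j| ≤ 1` for all `j` (`eventually_all`). -/

namespace Vale.Agent.P244

open scoped ContDiff Topology
open Set Filter Real

variable {ι : Type} {S : ι → St} {s : ι → ℝ} {S' : St} {s' : ℝ} {κ : Cst}

theorem exl_lim (U : Ultrafilter ι) {y : ι → ℝ} {a b : ℝ} (h : ∀ n, y n ∈ Icc a b) :
    ∃ y' ∈ Icc a b, Tendsto y U (𝓝 y') :=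
  isCompact_Icc.ultrafilter_le_nhds (U.map y) (le_principal_iff.2 (mem_map.2 (univ_mem' h)))

theorem ex_lim (hκ : κ.Pos) {U : Ultrafilter ι} (h : Cv U S s S' s') (hs : s' < S'.τ₀)
    (ht : Tr κ S' 1 s') {x : ι → Fin 3 → ℝ} (he : ∀ᶠ n in (U : Filter ι), Ex κ (S n) (s n) (x n)) :
    ∃ x', Ex κ S' s' x' ∧ Tendsto x U (𝓝 x') := by
  have h0 : (0 : ℝ) ∈ Icc 0 (κ.s ^ 3) := left_mem_Icc.2 hκ.s3.1.le
  have hs1 : Icc 0 (κ.s ^ 3) ⊆ Icc (0 : ℝ) 1 := Icc_subset_Icc_right hκ.s3.2.le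
  have ex : ∀ n, ∃ ya ∈ Icc 0 (κ.s ^ 3), ∃ yb ∈ Icc 0 (κ.s ^ 3), Ex κ (S n) (s n) (x n) →
      (S n).rho (s n) ya = κ.η * ((S n).τ₀ - s n) ∧
        (S n).rho (s n) yb = 2 * κ.η * ((S n).τ₀ - s n) ∧ x n = exv κ (S n) (s n) ya yb :=
    fun n => by
      by_cases hn : Ex κ (S n) (s n) (x n)
      · obtain ⟨ya, ha, yb, hb, h'⟩ := hn
        exact ⟨ya, ha, yb, hb, fun _ => h'⟩
      · exact ⟨0, h0, 0, h0, fun h' => absurd h' hn⟩
  choose ya ha yb hb hx using ex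
  obtain ⟨a, a1, a2⟩ := exl_lim U ha
  obtain ⟨b, b1, b2⟩ := exl_lim U hb
  have pa := h U le_rfl ya a (fun n => hs1 (ha n)) (hs1 a1) a2
  have pb := h U le_rfl yb b (fun n => hs1 (hb n)) (hs1 b1) b2
  have ea : S'.rho s' a = κ.η * (S'.τ₀ - s') :=
    tendsto_nhds_unique_of_eventuallyEq pa.rho (pa.rem.const_mul _)
      (he.mono fun n hn => (hx n hn).1)
  have eb : S'.rho s' b = 2 * κ.η * (S'.τ₀ - s') :=
    tendsto_nhds_unique_of_eventuallyEq pb.rho (pb.rem.const_mul _)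
      (he.mono fun n hn => (hx n hn).2.1)
  have hp : 0 < κ.η * (S'.τ₀ - s') := mul_pos hκ.η (sub_pos.2 hs)
  have ka := (ht.I a a1).k
  have kb := (ht.I b b1).k
  refine ⟨exv κ S' s' a b, ⟨a, a1, b, b1, ea, eb, rfl⟩, ?_⟩
  refine (Pc.exv hκ pa pb hs (by linarith) (by linarith) (by linarith) (by linarith)).congr' ?_
  exact he.mono fun n hn => (hx n hn).2.2.symm

theorem ex_open (hκ : κ.Pos) {F : Filter ι} (h : Cv F S s S' s') (hs : s' < S'.τ₀)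
    (hr : ∀ᶠ n in F, Reg (S n) (s n)) (hr' : Reg S' s') (ht : Tr κ S' 1 s') {x' : Fin 3 → ℝ}
    (he : Ex κ S' s' x') (hx : ∀ j, |x' j| < 1)
    (hl : 2 * κ.η * (S'.τ₀ - s') < S'.rho s' (κ.s ^ 3)) :
    ∀ᶠ n in F, ∃ x, Ex κ (S n) (s n) x ∧ ∀ j, |x j| ≤ 1 := by
  have h1 : κ.s ^ 3 ∈ Icc (0 : ℝ) 1 := ⟨hκ.s3.1.le, hκ.s3.2.le⟩
  have p := h F le_rfl (fun _ => κ.s ^ 3) _ (fun _ => h1) h1 tendsto_const_nhds
  have ex : ∀ n, ∃ x, (∃ x, Ex κ (S n) (s n) x) → Ex κ (S n) (s n) x := fun n => by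
    by_cases hn : ∃ x, Ex κ (S n) (s n) x
    · exact hn.imp fun _ h' _ => h'
    · exact ⟨0, fun h' => absurd h' hn⟩
  choose x hxe using ex
  have h2 : ∀ᶠ n in F, Ex κ (S n) (s n) (x n) := by
    filter_upwards [hr, p.rem.eventually_const_lt (sub_pos.2 hs),
      (p.rem.const_mul (2 * κ.η)).eventually_lt p.rho hl] with n a b c
    exact hxe n (ex_exist hκ a (sub_pos.1 b).le c.le)
  refine mem_iff_ultrafilter.2 fun U hU => ?_
  obtain ⟨x'', e1, e2⟩ := ex_lim hκ (h.mono hU) hs ht (hU h2)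
  rw [Ex.uniq hκ hr' ht e1 he] at e2
  have h3 : ∀ᶠ n in (U : Filter ι), ∀ j, |x n j| < 1 := eventually_all.2 fun j =>
    (((continuous_apply j).tendsto x').comp e2).abs.eventually_lt_const (hx j)
  have h4 : ∀ᶠ n in (U : Filter ι), ∃ x, Ex κ (S n) (s n) x ∧ ∀ j, |x j| ≤ 1 := by
    filter_upwards [h3, hU h2] with n a b
    exact ⟨x n, b, fun j => (a j).le⟩
  exact h4

end Vale.Agent.P244
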