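import Vale.Agent.P244.T.Inst

/-! P244 T/Ext: uniform extension of trapped runs. Helper names start with `ext_`.
Plan. `N₂` from `GoodData.cm 2`, `N` from `GoodRun.norm T`; `Nb` and `Cm` are monotone in the bound, and
`Cm m S.A 0` follows from the data by `dY_iter_congr`. For `t > 0`: `ex_extend (max N N₂) T` applied to the
run restricted to `[0, t]`; for `t = 0`: `ex_start N₂` applied to `S0`. Take `d` = the minimum of the two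
times (`IsSol.mono`), the maximum of the two bounds. `Same.trap`, `Same.ex` transport the trap. -/

namespace Vale.Agent.P244

open scoped ContDiff Topology
open Set Filter Real

theorem ext_nb {u : Fn} {t N M : ℝ} (h : Nb u t N) (hM : N ≤ M) : Nb u t M :=
  fun y hy => ⟨(h y hy).1.trans hM, (h y hy).2.1.trans hM, (h y hy).2.2.trans hM⟩

theorem ext_cm {u v : Fn} {m : ℕ} {t N M : ℝ} (h : Cm m v t N) (e : EqOn (u t) (v t) (Icc 0 1))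
    (hM : N ≤ M) : Cm m u t M := fun i hi y hy => by
  rw [dY_iter_congr e i hy]
  exact (h i hi y hy).trans hM

theorem ext_fin {κ : Cst} (hκ : κ.Pos) {S : St} {c x : Fin 3 → ℝ} {t d d' N N' : ℝ} (h0 : 0 ≤ t)
    (ht : t < S.τ₀) (hD : Data κ.δ S c) (hT : Trap κ S t) (hE : Ex κ S t x) {A β B : Fn}
    (hs : IsSol (Icc 0 (t + d')) A β B)
    (he : ∀ r ∈ Icc 0 t, EqOn (A r) (S.A r) (Icc 0 1) ∧ EqOn (β r) (S.β r) (Icc 0 1))
    (hb : ∀ r ∈ Icc 0 (t + d'), Nb A r N' ∧ Nb β r N') (hd : d ≤ d') (hN : N' ≤ N) :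
    ∃ S' : St, S'.τ₀ = S.τ₀ ∧ IsSol (Icc 0 (t + d)) S'.A S'.β S'.B ∧
      (∀ r ∈ Icc 0 (t + d), Nb S'.A r N ∧ Nb S'.β r N) ∧ Data κ.δ S' c ∧ Trap κ S' t ∧
      Ex κ S' t x := by
  have i0 : (0 : ℝ) ∈ Icc 0 t := ⟨le_rfl, h0⟩
  have it : t ∈ Icc 0 t := ⟨h0, le_rfl⟩
  have sub : Icc 0 (t + d) ⊆ Icc 0 (t + d') := Icc_subset_Icc_right (by linarith)
  have hS : ∀ r ∈ Icc 0 t, Same S ⟨A, β, B, S.τ₀⟩ r := fun r hr =>
    ⟨rfl, (he r hr).1.symm, (he r hr).2.symm, (he 0 i0).1.symm, (he 0 i0).2.symm⟩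
  exact ⟨⟨A, β, B, S.τ₀⟩, rfl, hs.mono sub,
    fun r hr => ⟨ext_nb (hb r (sub hr)).1 hN, ext_nb (hb r (sub hr)).2 hN⟩,
    ⟨hD.cube, (he 0 i0).1.trans hD.A, (he 0 i0).2.trans hD.β⟩, Same.trap hκ hS ht hT,
    (hS t it).ex hκ ht (hT t it).1 hE⟩

theorem ext_unif {κ : Cst} {τ₀ : ℝ} (hκ : κ.Pos) (hd : GoodData κ τ₀) (hr : GoodRun κ τ₀) {T : ℝ}
    (hT : T < τ₀) : ∃ d > 0, ∃ N, ∀ c t x, t ≤ T → Reach κ τ₀ c t x → ∃ S : St, S.τ₀ = τ₀ ∧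
      IsSol (Icc 0 (t + d)) S.A S.β S.B ∧ (∀ r ∈ Icc 0 (t + d), Nb S.A r N ∧ Nb S.β r N) ∧
      Data κ.δ S c ∧ Trap κ S t ∧ Ex κ S t x := by
  obtain ⟨N₂, h2⟩ := hd.cm 2
  obtain ⟨N, hN⟩ := hr.norm T hT
  obtain ⟨d₁, hd₁, N₁, h1⟩ := ex_extend (max N N₂) T
  obtain ⟨d₀, hd₀, N₀, h0⟩ := ex_start N₂
  refine ⟨min d₁ d₀, lt_min hd₁ hd₀, max N₁ N₀, ?_⟩
  rintro c t x htT ⟨t₂, S, ht0, ht2, rfl, hS, hD, hTr, hE⟩
  have ht : t < S.τ₀ := htT.trans_lt hT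
  rcases ht0.eq_or_lt with rfl | hpos
  · obtain ⟨A, β, B, k1, k2, k3, k4⟩ := h0 _ _ (hd.smooth c hD.cube).1 (hd.smooth c hD.cube).2
      (h2 c hD.cube).1 (h2 c hD.cube).2
    refine ext_fin hκ le_rfl ht hD hTr hE (A := A) (β := β) (B := B) (d' := d₀)
      (by rwa [zero_add]) (fun r hr => ?_) (by rwa [zero_add]) (min_le_right _ _) (le_max_right _ _)
    obtain rfl : r = 0 := le_antisymm hr.2 hr.1
    exact ⟨k2.trans hD.A.symm, k3.trans hD.β.symm⟩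
  · have hS' := hS.mono hpos ht2.le
    obtain ⟨A, β, B, k1, k2, k3⟩ := h1 t ⟨hpos, htT⟩ S.A S.β S.B hS'.sol (fun r hr =>
      have h := hN S c t rfl ⟨hS', hD, hTr⟩ htT r hr
      ⟨ext_nb h.1 (le_max_left _ _), ext_nb h.2 (le_max_left _ _)⟩)
      (ext_cm (h2 c hD.cube).1 hD.A (le_max_right _ _))
      (ext_cm (h2 c hD.cube).2 hD.β (le_max_right _ _))
    exact ext_fin hκ ht0 ht hD hTr hE k1 k2 k3 (min_le_left _ _) (le_max_left _ _)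

end Vale.Agent.P244
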