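import Vale.Agent.P244.T.Basic

/-! P244 T/Glue (T6): the solution on `[0, τ₀)`. Helper names start with `glu_`.
Plan. `IsSol.congr`: `Sm.congr`, `HasDerivWithinAt.congr`, `dY_congr` (twice for `dY (dY _)`).
`isSol_Ico`: at `t ∈ Ico 0 τ` use `t₁ = (t + τ) / 2`; `Icc 0 t₁ ∈ 𝓝[Ico 0 τ] t`,
`HasDerivWithinAt.mono_of_mem_nhdsWithin`, `ContDiffWithinAt.mono_of_mem_nhdsWithin`
(`nhdsWithin_prod_eq` or `mem_nhdsWithin` with the open set `Iio t₁ ×ˢ univ`).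
`glue_top`: choose `S t` for every `t` (default `S0`), `A t = (S t).A t` and so on; on `[0, t₁]` these agree
with `S t₁` (`same_of_data`). Bounds from `GoodRun.scal`, `GoodRun.deg` for the run `S t₁` up to
`t₁ = (t + τ₀) / 2`; for the last claim `t = max (τ₀ / 2) (τ₀ - ε / 2)`, `exp (β) ^ 3 ≤ ε ^ 3 / 4`,
`lt_of_pow_lt_pow_left₀`. -/

namespace Vale.Agent.P244

open scoped ContDiff Topology
open Set Filter Real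

theorem glu_d {u v : Fn} {t y : ℝ} (e : EqOn (u t) (v t) (Icc 0 1)) (hy : y ∈ Icc (0 : ℝ) 1) :
    u t y = v t y ∧ dY u t y = dY v t y ∧ dY (dY u) t y = dY (dY v) t y :=
  ⟨e hy, dY_congr e hy, dY_congr (fun _ hz => dY_congr e hz) hy⟩

theorem glu_mem {τ t : ℝ} (ht : t ∈ Ico 0 τ) :
    (t + τ) / 2 ∈ Ioo 0 τ ∧ t ∈ Icc 0 ((t + τ) / 2) ∧ Icc 0 ((t + τ) / 2) ∈ 𝓝[Ico 0 τ] t := by
  refine ⟨⟨by linarith [ht.1, ht.2], by linarith [ht.2]⟩, ⟨ht.1, by linarith [ht.2]⟩, ?_⟩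
  exact mem_nhdsWithin.2 ⟨Iio ((t + τ) / 2), isOpen_Iio, by
    show t < (t + τ) / 2
    linarith [ht.2], fun s hs => ⟨hs.2.1, le_of_lt hs.1⟩⟩

theorem glu_sm {τ : ℝ} {u : Fn} (h : ∀ t₁ ∈ Ioo 0 τ, Sm (Icc 0 t₁) u) : Sm (Ico 0 τ) u := by
  rintro ⟨t, y⟩ ⟨ht, hy⟩
  obtain ⟨h1, h2, h3⟩ := glu_mem ht
  refine (h _ h1 (t, y) ⟨h2, hy⟩).mono_of_mem_nhdsWithin ?_
  rw [nhdsWithin_prod_eq]
  exact prod_mem_prod h3 self_mem_nhdsWithin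

theorem IsSol.congr {I : Set ℝ} {A β B A' β' B' : Fn} (h : IsSol I A β B)
    (e : ∀ t ∈ I, EqOn (A' t) (A t) (Icc 0 1) ∧ EqOn (β' t) (β t) (Icc 0 1) ∧
      EqOn (B' t) (B t) (Icc 0 1)) : IsSol I A' β' B' := by
  refine ⟨h.smA.congr fun t ht y hy => (e t ht).1 hy, h.smβ.congr fun t ht y hy => (e t ht).2.1 hy,
    h.smB.congr fun t ht y hy => (e t ht).2.2 hy, fun t ht y hy => ?_, fun t ht y hy => ?_,
    fun t ht y hy => ?_, fun t ht => ?_⟩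
  · obtain ⟨a0, a1, a2⟩ := glu_d (e t ht).1 hy
    have e1 : rhsA A' B' t y = rhsA A B t y := by
      simp only [rhsA, DD, a0, a1, a2, (e t ht).2.2 hy]
    rw [e1]
    exact (h.eqA t ht y hy).congr_of_mem (fun s hs => (e s hs).1 hy) ht
  · obtain ⟨b0, b1, b2⟩ := glu_d (e t ht).2.1 hy
    have e1 : rhsB A' β' B' t y = rhsB A β B t y := by
      simp only [rhsB, DD, b0, b1, b2, (e t ht).1 hy, (e t ht).2.2 hy]
    rw [e1]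
    exact (h.eqβ t ht y hy).congr_of_mem (fun s hs => (e s hs).2.1 hy) ht
  · rw [dY_congr (e t ht).2.2 hy, dY_congr (e t ht).1 hy, dY_congr (e t ht).2.1 hy, (e t ht).1 hy]
    exact h.eqB t ht y hy
  · rw [(e t ht).2.2 ⟨zero_le_one, le_rfl⟩]
    exact h.one t ht

theorem Rf_congr {A β A' β' : Fn} {t y : ℝ} (hA : EqOn (A' t) (A t) (Icc 0 1))
    (hβ : EqOn (β' t) (β t) (Icc 0 1)) (hy : y ∈ Icc (0 : ℝ) 1) : Rf A' β' t y = Rf A β t y := by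
  obtain ⟨a0, a1, a2⟩ := glu_d hA hy
  obtain ⟨b0, b1, b2⟩ := glu_d hβ hy
  simp only [Rf, a0, a1, a2, b0, b1, b2]

theorem isSol_Ico {τ : ℝ} {A β B : Fn} (h : ∀ t₁ ∈ Ioo 0 τ, IsSol (Icc 0 t₁) A β B) :
    IsSol (Ico 0 τ) A β B := by
  refine ⟨glu_sm fun t ht => (h t ht).smA, glu_sm fun t ht => (h t ht).smβ,
    glu_sm fun t ht => (h t ht).smB, fun t ht y hy => ?_, fun t ht y hy => ?_,
    fun t ht y hy => ?_, fun t ht => ?_⟩ <;> obtain ⟨h1, h2, h3⟩ := glu_mem ht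
  · exact ((h _ h1).eqA t h2 y hy).mono_of_mem_nhdsWithin h3
  · exact ((h _ h1).eqβ t h2 y hy).mono_of_mem_nhdsWithin h3
  · exact (h _ h1).eqB t h2 y hy
  · exact (h _ h1).one t h2

theorem glue_top {κ : Cst} {τ₀ : ℝ} (h0 : 0 < τ₀) (hr : GoodRun κ τ₀) {c : Fin 3 → ℝ}
    (h : ∀ t, 0 ≤ t → t < τ₀ → ∃ x, Reach κ τ₀ c t x) : ∃ A β B : Fn, IsSol (Ico 0 τ₀) A β B ∧
      (∃ C, ∀ t ∈ Ico 0 τ₀, ∀ y ∈ Icc (0 : ℝ) 1, |Rf A β t y| ≤ C) ∧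
      ∀ ε > 0, ∃ t ∈ Ico 0 τ₀, Real.exp (β t 0) < ε := by
  have h' : ∀ t, ∃ (S : St) (t₂ : ℝ), t ∈ Ico 0 τ₀ →
      t < t₂ ∧ S.τ₀ = τ₀ ∧ S.Sol t₂ ∧ Data κ.δ S c ∧ Trap κ S t := by
    intro t
    by_cases ht : t ∈ Ico 0 τ₀
    · obtain ⟨x, t₂, S, -, h1, h2, h3, h4, h5, -⟩ := h t ht.1 ht.2
      exact ⟨S, t₂, fun _ => ⟨h1, h2, h3, h4, h5⟩⟩
    · exact ⟨S0 0 0 c, 0, fun h => absurd h ht⟩
  choose S T hS using h'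
  have run : ∀ t₁ ∈ Ioo 0 τ₀, Run κ (S t₁) c t₁ := fun t₁ ht => by
    obtain ⟨h1, -, h3, h4, h5⟩ := hS t₁ (Ioo_subset_Ico_self ht)
    exact ⟨h3.mono ht.1 h1.le, h4, h5⟩
  have agree : ∀ t₁ ∈ Ioo 0 τ₀, ∀ t ∈ Icc 0 t₁, EqOn ((S t).A t) ((S t₁).A t) (Icc 0 1) ∧
      EqOn ((S t).β t) ((S t₁).β t) (Icc 0 1) ∧ EqOn ((S t).B t) ((S t₁).B t) (Icc 0 1) := by
    intro t₁ h1 t ht
    obtain ⟨a1, a2, a3, a4, -⟩ := hS t ⟨ht.1, ht.2.trans_lt h1.2⟩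
    obtain ⟨b1, b2, b3, b4, -⟩ := hS t₁ (Ioo_subset_Ico_self h1)
    obtain ⟨e1, e2⟩ := same_of_data a3 b3 (a2.trans b2.symm) a4 b4 ht.1 a1.le (ht.2.trans b1.le)
    exact ⟨e1.A, e1.β, e2⟩
  refine ⟨fun t => (S t).A t, fun t => (S t).β t, fun t => (S t).B t,
    isSol_Ico fun t₁ h1 => (run t₁ h1).sol.sol.congr (agree t₁ h1), ?_, fun ε hε => ?_⟩
  · obtain ⟨C, hC⟩ := hr.scal
    refine ⟨C, fun t ht y hy => ?_⟩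
    obtain ⟨h1, h2, -⟩ := glu_mem ht
    rw [Rf_congr (A' := fun t => (S t).A t) (β' := fun t => (S t).β t) (agree _ h1 t h2).1
      (agree _ h1 t h2).2.1 hy]
    exact hC _ c _ (hS _ (Ioo_subset_Ico_self h1)).2.1 (run _ h1) t h2 y hy
  · obtain ⟨t, h1, h2⟩ : ∃ t ∈ Ioo 0 τ₀, τ₀ - t ≤ ε / 2 :=
      ⟨max (τ₀ / 2) (τ₀ - ε / 2), ⟨lt_max_of_lt_left (half_pos h0),
        max_lt (half_lt_self h0) (by linarith)⟩, by linarith [le_max_right (τ₀ / 2) (τ₀ - ε / 2)]⟩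
    refine ⟨t, Ioo_subset_Ico_self h1, ?_⟩
    have h3 := hr.deg _ c _ (hS _ (Ioo_subset_Ico_self h1)).2.1 (run t h1) t ⟨h1.1.le, le_rfl⟩
    have h4 : (S t).HH t 0 = Real.exp ((S t).β t 0) ^ 3 := by
      rw [← Real.exp_nat_mul]; rfl
    have h5 : (τ₀ - t) ^ 3 ≤ (ε / 2) ^ 3 := pow_le_pow_left₀ (by linarith [h1.2]) h2 3
    refine lt_of_pow_lt_pow_left₀ 3 hε.le ?_
    show Real.exp ((S t).β t 0) ^ 3 < ε ^ 3
    nlinarith [pow_pos hε 3]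

end Vale.Agent.P244
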