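import Vale.Agent.P244.T.TrLim
import Vale.Agent.P244.T.ExLim

/-! P244 T/Inst: the three sources of continuous convergence. Helper names start with `ins_`.
Plan. `xx_eq`: product rule within `Icc 0 1` (`dY_eq`; `derivWithin` of a smooth slice is smooth).
`cv_unif`: `TendstoUniformlyOn.tendsto_comp` (after `TendstoUniformlyOn.mono_left`-like restriction to
`G ≤ F`) with `(s n, y n) → (s', y')` within the rectangle (`tendsto_nhdsWithin_iff`), continuity of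
`dY^[m]` from `Sm.dY_iter`, `Sm.cont`; the same at `(0, y n)`; `xx_eq` eventually for the second order
terms. `cv_time`: `cv_unif` for the constant family. `cv_same`: a filter on `Unit` is `⊥` or `⊤`; in the
second case `y () = y'` (`tendsto_nhds_unique` with a constant function); `dY_congr`.
`Same.tr`, `Same.ex`: `tr_closed`, `ex_lim` with `pure ()`. -/

namespace Vale.Agent.P244

open scoped ContDiff Topology
open Set Filter Real

variable {κ : Cst}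

theorem xx_eq {u : Fn} {t y : ℝ} (h : ContDiffOn ℝ ∞ (u t) (Icc 0 1)) (hy : y ∈ Icc (0 : ℝ) 1) :
    XX (XX u) t y = y * dY u t y + y ^ 2 * dY (dY u) t y := by
  have hu : UniqueDiffOn ℝ (Icc (0 : ℝ) 1) := uniqueDiffOn_Icc one_pos
  have h1 : ContDiffOn ℝ ∞ (dY u t) (Icc 0 1) := h.derivWithin hu (by simp)
  have h2 : HasDerivWithinAt (dY u t) (dY (dY u) t y) (Icc 0 1) y :=
    ((h1.differentiableOn (by simp)) y hy).hasDerivWithinAt
  have h3 : HasDerivWithinAt (XX u t) (1 * dY u t y + y * dY (dY u) t y) (Icc 0 1) y :=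
    (hasDerivWithinAt_id y _).mul h2
  show y * dY (XX u) t y = _
  rw [dY_eq hy h3]
  ring

theorem ins_jet {ι : Type} {F G : Filter ι} (hG : G ≤ F) {u : ι → Fn} {u' : Fn} {t₂ : ℝ} (h2 : 0 < t₂)
    (hu' : Sm (Icc 0 t₂) u') {m : ℕ}
    (hu : TendstoUniformlyOn (fun n (p : ℝ × ℝ) => dY^[m] (u n) p.1 p.2)
        (fun p => dY^[m] u' p.1 p.2) F (Icc 0 t₂ ×ˢ Icc 0 1))
    {s y : ι → ℝ} {s' y' : ℝ} (hs : ∀ᶠ n in F, s n ∈ Icc 0 t₂) (hs' : s' ∈ Icc 0 t₂)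
    (ht : Tendsto s F (𝓝 s')) (hy : ∀ n, y n ∈ Icc (0 : ℝ) 1) (hy' : y' ∈ Icc (0 : ℝ) 1)
    (hz : Tendsto y G (𝓝 y')) :
    Tendsto (fun n => dY^[m] (u n) (s n) (y n)) G (𝓝 (dY^[m] u' s' y')) := by
  have hu2 : TendstoUniformlyOn (fun n (p : ℝ × ℝ) => dY^[m] (u n) p.1 p.2)
      (fun p => dY^[m] u' p.1 p.2) G (Icc 0 t₂ ×ˢ Icc 0 1) := fun V hV => (hu V hV).filter_mono hG
  have hg : Tendsto (fun n => (s n, y n)) G (𝓝[Icc 0 t₂ ×ˢ Icc 0 1] (s', y')) :=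
    tendsto_nhdsWithin_iff.2 ⟨(ht.mono_left hG).prodMk_nhds hz,
      (hs.filter_mono hG).mono fun n hn => ⟨hn, hy n⟩⟩
  exact hu2.tendsto_comp ((hu'.dY_iter (ti_Icc h2) m).cont (s', y') ⟨hs', hy'⟩) hg

theorem ins_xx {ι : Type} {G : Filter ι} {u : ι → Fn} {u' : Fn} {I : Set ℝ} (hu : ∀ n, Sm I (u n))
    (hu' : Sm I u') {s y : ι → ℝ} {s' y' : ℝ} (hs : ∀ᶠ n in G, s n ∈ I) (hs' : s' ∈ I)
    (hy : ∀ n, y n ∈ Icc (0 : ℝ) 1) (hy' : y' ∈ Icc (0 : ℝ) 1) (hz : Tendsto y G (𝓝 y'))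
    (h1 : Tendsto (fun n => dY (u n) (s n) (y n)) G (𝓝 (dY u' s' y')))
    (h2 : Tendsto (fun n => dY (dY (u n)) (s n) (y n)) G (𝓝 (dY (dY u') s' y'))) :
    Tendsto (fun n => XX (XX (u n)) (s n) (y n)) G (𝓝 (XX (XX u') s' y')) := by
  rw [xx_eq (hu'.slice hs') hy']
  refine ((hz.mul h1).add ((hz.pow 2).mul h2)).congr' (hs.mono fun n hn => ?_)
  exact (xx_eq ((hu n).slice hn) (hy n)).symm

theorem cv_unif {ι : Type} {F : Filter ι} {S : ι → St} {s : ι → ℝ} {S' : St} {s' t₂ : ℝ}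
    (h2 : 0 < t₂) (hτ : ∀ n, (S n).τ₀ = S'.τ₀)
    (hS : ∀ n, IsSol (Icc 0 t₂) (S n).A (S n).β (S n).B) (hS' : IsSol (Icc 0 t₂) S'.A S'.β S'.B)
    (hu : ∀ m : ℕ,
      TendstoUniformlyOn (fun n (p : ℝ × ℝ) => dY^[m] (S n).A p.1 p.2)
        (fun p => dY^[m] S'.A p.1 p.2) F (Icc 0 t₂ ×ˢ Icc 0 1) ∧
      TendstoUniformlyOn (fun n (p : ℝ × ℝ) => dY^[m] (S n).β p.1 p.2)
        (fun p => dY^[m] S'.β p.1 p.2) F (Icc 0 t₂ ×ˢ Icc 0 1))
    (hs : ∀ᶠ n in F, s n ∈ Icc 0 t₂) (hs' : s' ∈ Icc 0 t₂) (ht : Tendsto s F (𝓝 s')) :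
    Cv F S s S' s' := by
  intro G hG y y' hy hy' hz
  have h0 : (0 : ℝ) ∈ Icc 0 t₂ := left_mem_Icc.2 h2.le
  have jA := fun m => ins_jet hG h2 hS'.smA (hu m).1 hs hs' ht hy hy' hz
  have jβ := fun m => ins_jet hG h2 hS'.smβ (hu m).2 hs hs' ht hy hy' hz
  exact ⟨hτ, ht.mono_left hG, hz, jA 0, jA 1,
    ins_xx (fun n => (hS n).smA) hS'.smA (hs.filter_mono hG) hs' hy hy' hz (jA 1) (jA 2),
    jβ 0, jβ 1,
    ins_xx (fun n => (hS n).smβ) hS'.smβ (hs.filter_mono hG) hs' hy hy' hz (jβ 1) (jβ 2),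
    ins_jet (s := fun _ => 0) hG h2 hS'.smA (hu 0).1 (Eventually.of_forall fun _ => h0) h0
      tendsto_const_nhds hy hy' hz,
    ins_jet (s := fun _ => 0) hG h2 hS'.smβ (hu 0).2 (Eventually.of_forall fun _ => h0) h0
      tendsto_const_nhds hy hy' hz⟩

theorem cv_time {S : St} {t₂ t : ℝ} (h : S.Sol t₂) (ht : t ∈ Icc 0 t₂) :
    Cv (𝓝[Icc 0 t₂] t) (fun _ => S) (fun r => r) S t := by
  refine cv_unif h.pos (fun _ => rfl) (fun _ => h.sol) h.sol (fun m => ⟨?_, ?_⟩)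
    self_mem_nhdsWithin ht (tendsto_id.mono_left nhdsWithin_le_nhds)
  · exact fun V hV => Eventually.of_forall fun _ _ _ => refl_mem_uniformity hV
  · exact fun V hV => Eventually.of_forall fun _ _ _ => refl_mem_uniformity hV

theorem ins_xx_congr {u v : Fn} {t y : ℝ} (e : EqOn (u t) (v t) (Icc 0 1)) (hy : y ∈ Icc (0 : ℝ) 1) :
    XX (XX u) t y = XX (XX v) t y := by
  have e1 : EqOn (XX u t) (XX v t) (Icc 0 1) := fun z hz => by
    show z * dY u t z = z * dY v t z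
    rw [dY_congr e hz]
  show y * dY (XX u) t y = y * dY (XX v) t y
  rw [dY_congr e1 hy]

theorem cv_same {S S' : St} {t : ℝ} (h : Same S S' t) :
    Cv (pure () : Filter Unit) (fun _ => S) (fun _ => t) S' t := by
  intro G _ y y' hy hy' hz
  rcases G.eq_or_neBot with rfl | hG
  · exact ⟨fun _ => h.τ, tendsto_bot, tendsto_bot, tendsto_bot, tendsto_bot, tendsto_bot, tendsto_bot,
      tendsto_bot, tendsto_bot, tendsto_bot, tendsto_bot⟩
  · have e : y = fun _ => y' := by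
      have e1 : y = fun _ => y () := rfl
      rw [e1] at hz ⊢
      rw [tendsto_nhds_unique tendsto_const_nhds hz]
    subst e
    have c : ∀ {a b : ℝ}, a = b → Tendsto (fun _ : Unit => a) G (𝓝 b) := fun e => e ▸ tendsto_const_nhds
    exact ⟨fun _ => h.τ, tendsto_const_nhds, tendsto_const_nhds, c (h.A hy'), c (dY_congr h.A hy'),
      c (ins_xx_congr h.A hy'), c (h.β hy'), c (dY_congr h.β hy'), c (ins_xx_congr h.β hy'),
      c (h.A0 hy'), c (h.β0 hy')⟩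

theorem Same.tr (hκ : κ.Pos) {S S' : St} {t l : ℝ} (h : Same S S' t) (ht : t ≤ S.τ₀)
    (e : Tr κ S l t) : Tr κ S' l t := by
  exact tr_closed hκ (cv_same h) (h.τ ▸ ht) (Eventually.of_forall fun _ => e)

theorem Same.ex (hκ : κ.Pos) {S S' : St} {t : ℝ} (h : Same S S' t) (ht : t < S.τ₀)
    (e : Tr κ S 1 t) {x : Fin 3 → ℝ} (hx : Ex κ S t x) : Ex κ S' t x := by
  obtain ⟨x', h1, h2⟩ := ex_lim hκ (U := (pure () : Ultrafilter Unit)) (x := fun _ => x) (cv_same h)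
    (h.τ ▸ ht) (h.tr hκ ht.le e) (Eventually.of_forall fun _ => hx)
  rw [tendsto_nhds_unique tendsto_const_nhds h2]
  exact h1

theorem Same.rho {S S' : St} {t y : ℝ} (h : Same S S' t) (hy : y ∈ Icc (0 : ℝ) 1) :
    S.rho t y = S'.rho t y := by
  unfold St.rho St.KK
  rw [h.A hy, h.β hy]

theorem Same.trap (hκ : κ.Pos) {S S' : St} {t : ℝ} (h : ∀ r ∈ Icc 0 t, Same S S' r)
    (ht : t < S.τ₀) (e : Trap κ S t) : Trap κ S' t := by
  intro r hr
  obtain ⟨e1, x, e2, e3⟩ := e r hr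
  have hr' : r < S.τ₀ := hr.2.trans_lt ht
  exact ⟨(h r hr).tr hκ hr'.le e1, x, (h r hr).ex hκ hr' e1 e2, e3⟩

end Vale.Agent.P244
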