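import Vale.Agent.P244.T.Inst

/-! P244 T/Open (T3): a run with exit values in the open cube continues.
Plan. `Tr (1/2)` and the strict level condition at time `t`: for `t = 0` from `GoodData.tr`, `GoodData.lev`
by `Data.same`, `Same.tr`, `Same.rho`; for `t > 0` from `GoodRun.impr`, `GoodRun.lev` for the run up to
`t`. `cv_time`, `tr_open`, `ex_open` give the trap for all times in `Icc 0 t₂` near `t`
(`Metric.eventually_nhds_iff` after `eventually_nhdsWithin_iff`); `t' = min (t + ε / 2) ((t + t₂) / 2)`. -/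

namespace Vale.Agent.P244

open scoped ContDiff Topology
open Set Filter Real

theorem Reach.opn {κ : Cst} {τ₀ : ℝ} {c x : Fin 3 → ℝ} {t : ℝ} (hκ : κ.Pos) (hd : GoodData κ τ₀)
    (hr : GoodRun κ τ₀) (h : Reach κ τ₀ c t x) (hx : ∀ j, |x j| < 1) :
    ∃ t' x', t < t' ∧ Reach κ τ₀ c t' x' := by
  obtain ⟨t₂, S, h0, hlt, hτ, sol, data, trap, hex⟩ := h
  subst hτ
  have htτ : t < S.τ₀ := hlt.trans sol.lt
  have htI : t ∈ Icc 0 t₂ := ⟨h0, hlt.le⟩
  have hs3 : κ.s ^ 3 ∈ Icc (0 : ℝ) 1 := ⟨hκ.s3.1.le, hκ.s3.2.le⟩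
  have key : Tr κ S (1 / 2) t ∧ 2 * κ.η * (S.τ₀ - t) < S.rho t (κ.s ^ 3) := by
    rcases h0.eq_or_lt with h00 | h00
    · subst h00
      have hsame := data.same
      refine ⟨hsame.symm.tr hκ (show (0 : ℝ) ≤ S.τ₀ from htτ.le) (hd.tr c data.cube), ?_⟩
      rw [hsame.rho hs3, sub_zero]
      exact hd.lev c
    · have run : Run κ S c t := ⟨sol.mono h00 hlt.le, data, trap⟩
      exact ⟨hr.impr S c t rfl run t ⟨h0, le_rfl⟩, hr.lev S c t rfl run t ⟨h0, le_rfl⟩⟩
  have hcv := cv_time sol htI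
  have e1 := tr_open hκ hcv htτ.le key.1
  have hreg : ∀ᶠ r in 𝓝[Icc 0 t₂] t, Reg S r := by
    filter_upwards [self_mem_nhdsWithin] with r hr' using sol.reg hr'
  have e2 := ex_open hκ hcv htτ hreg (sol.reg htI) (trap t ⟨h0, le_rfl⟩).1 hex hx key.2
  have e3 := e1.and e2
  rw [eventually_nhdsWithin_iff, Metric.eventually_nhds_iff] at e3
  obtain ⟨ε, hε, e3⟩ := e3
  have hm1 : min (t + ε / 2) ((t + t₂) / 2) ≤ t + ε / 2 := min_le_left _ _
  have hm2 : min (t + ε / 2) ((t + t₂) / 2) ≤ (t + t₂) / 2 := min_le_right _ _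
  have hm3 : t < min (t + ε / 2) ((t + t₂) / 2) := lt_min (by linarith) (by linarith)
  generalize min (t + ε / 2) ((t + t₂) / 2) = t' at hm1 hm2 hm3
  have trap' : Trap κ S t' := by
    intro r hr'
    rcases le_or_gt r t with hrt | hrt
    · exact trap r ⟨hr'.1, hrt⟩
    · refine e3 ?_ ⟨hr'.1, by linarith [hr'.2]⟩
      rw [Real.dist_eq, abs_lt]
      constructor <;> linarith [hr'.2]
  obtain ⟨-, x', hx', -⟩ := trap' t' ⟨by linarith, le_rfl⟩
  exact ⟨t', x', hm3, t₂, S, by linarith, by linarith, rfl, sol, data, trap', hx'⟩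

end Vale.Agent.P244
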