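import Vale.Agent.P244.T.Defs
import Vale.Agent.P371.Brouwer

/-! P244 T/PM: a covering form of the Poincare-Miranda theorem. Helper names start with `pm_`.
Plan. `proj c j = max (-1) (min (c j) 1)` is continuous with values in the cube and fixes the cube.
`pm_zero`: `g c = proj c - f (proj c)` is continuous and bounded (`isCompact_cube`,
`IsCompact.exists_bound_of_continuousOn`); at a fixed point (`P371.brouwer_bounded`) `c j > 1` and
`c j < -1` are impossible, so `proj c = c` and `f c = 0`. `pm_cover`: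
`f c j = Metric.infDist c (Am j) - Metric.infDist c (Ap j)`; both sets are nonempty (constant vectors
`1`, `-1`), `IsClosed.mem_iff_infDist_zero`. -/

namespace Vale.Agent.P244

open scoped ContDiff Topology
open Set Filter Real

theorem isCompact_cube : IsCompact cube := by
  have : cube = Icc (fun _ => -1) fun _ => 1 := by
    ext c
    simp only [cube, mem_ofPred_eq, abs_le, mem_Icc, Pi.le_def, forall_and]
  exact this ▸ isCompact_Icc

theorem pm_zero {f : (Fin 3 → ℝ) → Fin 3 → ℝ} (hf : ContinuousOn f cube)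
    (h : ∀ c ∈ cube, ∀ j, (c j = 1 → 0 ≤ f c j) ∧ (c j = -1 → f c j ≤ 0)) :
    ∃ c ∈ cube, f c = 0 := by
  set P : (Fin 3 → ℝ) → Fin 3 → ℝ := fun c j => max (-1) (min (c j) 1) with hP
  have cP : Continuous P := by fun_prop
  have mP : ∀ c, P c ∈ cube := fun c j =>
    abs_le.2 ⟨le_max_left _ _, max_le (by norm_num) (min_le_right _ _)⟩
  obtain ⟨C, hC⟩ := isCompact_cube.exists_bound_of_continuousOn (continuousOn_id.sub hf)
  obtain ⟨c, hc⟩ := P371.brouwer_bounded (f := fun c => P c - f (P c))
    (cP.sub (hf.comp_continuous cP mP)) fun c => hC _ (mP c)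
  have e : P c = c := funext fun j => by
    have a := congrFun hc j
    obtain ⟨b1, b2⟩ := h _ (mP c) j
    simp only [Pi.sub_apply] at a
    rcases le_total (c j) 1 with h1 | h1
    · rcases le_total (-1) (c j) with h2 | h2
      · simp [hP, h1, h2]
      · have k : P c j = -1 := by simp [hP, h1, h2]
        linarith [b2 k]
    · have k : P c j = 1 := by simp [hP, h1]
      linarith [b1 k]
  refine ⟨c, e ▸ mP c, ?_⟩
  simpa [e] using hc

theorem pm_cover {Ap Am : Fin 3 → Set (Fin 3 → ℝ)} (cp : ∀ j, IsClosed (Ap j))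
    (cm : ∀ j, IsClosed (Am j)) (dis : ∀ j, ∀ c ∈ Ap j, c ∉ Am j)
    (cov : ∀ c ∈ cube, ∃ j, c ∈ Ap j ∨ c ∈ Am j)
    (face : ∀ c ∈ cube, ∀ j, (c j = 1 → c ∈ Ap j) ∧ (c j = -1 → c ∈ Am j)) : False := by
  have np : ∀ j, (Ap j).Nonempty := fun j => ⟨_, (face (fun _ => 1) (fun _ => by simp) j).1 rfl⟩
  have nm : ∀ j, (Am j).Nonempty := fun j => ⟨_, (face (fun _ => -1) (fun _ => by simp) j).2 rfl⟩
  obtain ⟨c, hc, e⟩ := pm_zero (f := fun c j => Metric.infDist c (Am j) - Metric.infDist c (Ap j))
    (continuous_pi fun j => (Metric.continuous_infDist_pt _).sub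
      (Metric.continuous_infDist_pt _)).continuousOn fun c hc j =>
      ⟨fun h1 => by simpa [Metric.infDist_zero_of_mem ((face c hc j).1 h1)] using Metric.infDist_nonneg,
        fun h1 => by simpa [Metric.infDist_zero_of_mem ((face c hc j).2 h1)] using Metric.infDist_nonneg⟩
  obtain ⟨j, hj⟩ := cov c hc
  have a := sub_eq_zero.1 (congrFun e j)
  have b := dis j c
  rw [(cp j).mem_iff_infDist_zero (np j), (cm j).mem_iff_infDist_zero (nm j), a] at hj b
  exact b (or_self_iff.1 hj) (or_self_iff.1 hj)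

end Vale.Agent.P244
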