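import Vale.Agent.P244.T.Defs

/-! P244 T/Quant: the geometric quantities converge when the jets converge.
Plan: unfold (`simp only [St.kk, St.aa, St.bb, dX, h.τ]`), then `Tendsto.add/mul/sub/div/pow/rexp`,
`Filter.Tendsto.rpow_const` (`Or.inr`), `tendsto_pi_nhds` and `fin_cases` for `exv`. -/

namespace Vale.Agent.P244

open scoped ContDiff Topology
open Set Filter Real

variable {ι : Type} {F : Filter ι} {S : ι → St} {s y : ι → ℝ} {S' : St} {s' y' : ℝ}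

theorem quant_v (h : Pc F S s y S' s' y') :
    Tendsto (fun n => y n * (1 - y n)) F (𝓝 (y' * (1 - y'))) := h.z.mul (h.z.const_sub 1)

theorem quant_bb (h : Pc F S s y S' s' y') :
    Tendsto (fun n => (S n).bb (s n) (y n)) F (𝓝 (S'.bb s' y')) :=
  ((quant_v h).const_mul 2).mul h.β1

theorem quant_aa (h : Pc F S s y S' s' y') :
    Tendsto (fun n => (S n).aa (s n) (y n)) F (𝓝 (S'.aa s' y')) :=
  ((h.z.const_mul 2).const_sub 1).add (((quant_v h).const_mul 2).mul h.A1)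

theorem quant_PP {a b : ι → ℝ} {a' b' : ℝ} (ha : Tendsto a F (𝓝 a')) (hb : Tendsto b F (𝓝 b')) :
    Tendsto (fun n => PP (a n) (b n)) F (𝓝 (PP a' b')) :=
  (((ha.pow 3).sub (((ha.pow 2).const_mul _).mul hb)).add ((ha.const_mul _).mul (hb.pow 2))).sub
    ((hb.pow 3).const_mul _)

theorem quant_PP1 {a b : ι → ℝ} {a' b' : ℝ} (ha : Tendsto a F (𝓝 a')) (hb : Tendsto b F (𝓝 b')) :
    Tendsto (fun n => PP1 (a n) (b n)) F (𝓝 (PP1 a' b')) :=
  (((ha.pow 2).const_mul _).add ((ha.const_mul _).mul hb)).sub ((hb.pow 2).const_mul _)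

theorem quant_rem (h : Pc F S s y S' s' y') :
    Tendsto (fun n => (S n).τ₀ - s n) F (𝓝 (S'.τ₀ - s')) := by
  simp only [h.τ]
  exact h.t.const_sub _

theorem Pc.XA (h : Pc F S s y S' s' y') :
    Tendsto (fun n => XX (S n).A (s n) (y n)) F (𝓝 (XX S'.A s' y')) := by
  exact h.z.mul h.A1

theorem Pc.Xβ (h : Pc F S s y S' s' y') :
    Tendsto (fun n => XX (S n).β (s n) (y n)) F (𝓝 (XX S'.β s' y')) := by
  exact h.z.mul h.β1

theorem Pc.HH (h : Pc F S s y S' s' y') :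
    Tendsto (fun n => (S n).HH (s n) (y n)) F (𝓝 (S'.HH s' y')) := by
  exact (h.β.const_mul 3).rexp

theorem Pc.KK (h : Pc F S s y S' s' y') :
    Tendsto (fun n => (S n).KK (s n) (y n)) F (𝓝 (S'.KK s' y')) := by
  exact (quant_v h).mul ((h.A.const_mul 2).add h.β).rexp

theorem Pc.EE (h : Pc F S s y S' s' y') :
    Tendsto (fun n => (S n).EE (s n) (y n)) F (𝓝 (S'.EE s' y')) := by
  exact h.HH.sub h.KK

theorem Pc.th (h : Pc F S s y S' s' y') :
    Tendsto (fun n => (S n).th (s n) (y n)) F (𝓝 (S'.th s' y')) := by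
  exact (quant_v h).mul ((h.A.const_mul 2).sub (h.β.const_mul 2)).rexp

theorem Pc.hh (h : Pc F S s y S' s' y') :
    Tendsto (fun n => (S n).hh (s n) (y n)) F (𝓝 (S'.hh s' y')) := by
  exact h.β.rexp

theorem Pc.kk (h : Pc F S s y S' s' y') :
    Tendsto (fun n => (S n).kk (s n) (y n)) F (𝓝 (S'.kk s' y')) := by
  exact ((quant_aa h).const_mul 2).add (quant_bb h)

theorem Pc.sg (h : Pc F S s y S' s' y') :
    Tendsto (fun n => (S n).sg (s n) (y n)) F (𝓝 (S'.sg s' y')) := by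
  exact (quant_rem h).add (h.β.const_mul 2).rexp

theorem Pc.u1 (h : Pc F S s y S' s' y') (hs : s' ≤ S'.τ₀) :
    Tendsto (fun n => (S n).u1 (s n) (y n)) F (𝓝 (S'.u1 s' y')) := by
  exact (((h.A.const_mul (-2)).rexp.const_mul 2).mul (((h.β1.const_mul 3).mul h.HH).sub
    ((h.kk.div_const 2).mul ((h.A.const_mul 2).add h.β).rexp))).div (h.sg.pow 2)
    (pow_ne_zero 2 (sg_pos hs y').ne')

theorem Pc.u2 (h : Pc F S s y S' s' y') (hy : y' < 1) :
    Tendsto (fun n => (S n).u2 (s n) (y n)) F (𝓝 (S'.u2 s' y')) := by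
  exact ((h.A.const_mul (-2)).rexp.mul (((h.A1.add h.β1).const_mul 6).sub
    (tendsto_const_nhds.div (h.z.const_sub 1) (sub_pos.2 hy).ne'))).sub (h.β.const_mul (-2)).rexp

theorem Pc.rho (h : Pc F S s y S' s' y') :
    Tendsto (fun n => (S n).rho (s n) (y n)) F (𝓝 (S'.rho s' y')) := by
  exact h.KK.rpow_const (Or.inr (by norm_num))

theorem Pc.rem (h : Pc F S s y S' s' y') :
    Tendsto (fun n => (S n).τ₀ - s n) F (𝓝 (S'.τ₀ - s')) := by
  exact quant_rem h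

theorem Pc.Z0 (h : Pc F S s y S' s' y') :
    Tendsto (fun n => (S n).Z0 (s n) (y n)) F (𝓝 (S'.Z0 s' y')) := by
  exact h.EE.sub (quant_PP h.rem h.rho)

theorem Pc.Z1 (h : Pc F S s y S' s' y') (hk : S'.kk s' y' ≠ 0) (hr : S'.rho s' y' ≠ 0) :
    Tendsto (fun n => (S n).Z1 (s n) (y n)) F (𝓝 (S'.Z1 s' y')) := by
  exact (((((((quant_bb h).const_mul 3).mul h.HH).sub (h.kk.mul h.KK)).const_mul 3).div
    ((h.kk.const_mul 2).mul h.rho) (mul_ne_zero (mul_ne_zero two_ne_zero hk) hr))).sub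
    (quant_PP1 h.rem h.rho)

theorem Pc.exv {κ : Cst} (hκ : κ.Pos) {z : ι → ℝ} {z' : ℝ} (h : Pc F S s y S' s' y')
    (h' : Pc F S s z S' s' z') (hs : s' < S'.τ₀) (hk : S'.kk s' y' ≠ 0) (hr : S'.rho s' y' ≠ 0)
    (hk' : S'.kk s' z' ≠ 0) (hr' : S'.rho s' z' ≠ 0) :
    Tendsto (fun n => exv κ (S n) (s n) (y n) (z n)) F (𝓝 (exv κ S' s' y' z')) := by
  have h0 : S'.τ₀ - s' ≠ 0 := (sub_pos.2 hs).ne'
  have hδ := hκ.δ.ne'
  have hη := hκ.η.ne'
  refine tendsto_pi_nhds.2 fun j => ?_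
  fin_cases j
  · exact h.Z0.div ((h.rem.pow 3).const_mul _) (mul_ne_zero hδ (pow_ne_zero 3 h0))
  · exact (h.Z1 hk hr).div ((h.rem.pow 2).const_mul _)
      (mul_ne_zero (div_ne_zero hδ two_ne_zero) (pow_ne_zero 2 h0))
  · exact ((h'.Z1 hk' hr').sub (h.Z1 hk hr)).div ((h.rem.pow 2).const_mul _)
      (mul_ne_zero (mul_ne_zero (div_ne_zero hδ (by norm_num)) hη) (pow_ne_zero 2 h0))

end Vale.Agent.P244
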