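import Vale.Agent.P244.T.PM

/-! P244 T/Shoot (T5): the abstract shooting argument. Helper names start with `sh_`.
Plan. Suppose no `c` is reached for all times. For `σ = 1, -1` put
`A σ j = {c ∈ cube | 1 ≤ σ * x0 c j} ∪ {c | ∃ t x, P c t x ∧ σ * x j = 1}`.
Helper: if `P (c n) (t n) (x n)`, `c n → c'`, `t n → t' < τ` then `P c' t' x'` for a limit `x'` of a
subsequence of `x` (`isCompact_cube.tendsto_subseq`). Closed (`isClosed_of_closure_subset`,
`mem_closure_iff_seq_limit`, or `IsSeqClosed.isClosed`): first set by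
`ContinuousOn.preimage_isClosed_of_isClosed`; second set: subsequence with `t n → t' ∈ Icc 0 τ`; if
`t' = τ` then for `0 ≤ s < τ` eventually `s ≤ t n`, `down` and the helper (shift the sequence,
`tendsto_add_atTop_iff_nat`) show that `c'` is reached at time `s`, contradiction. Cover: if all
`|x0 c j| < 1` then the set of reached times is nonempty and bounded by some `s < τ` (`down`); its supremum
is reached (`exists_seq_tendsto_sSup`, helper), and `opn` shows `|x j| = 1` for some `j`.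
Disjoint: `zero`, `uniq`, `lt`. Then `pm_cover`. -/

namespace Vale.Agent.P244

open scoped ContDiff Topology
open Set Filter Real

theorem shoot {τ : ℝ} {P : (Fin 3 → ℝ) → ℝ → (Fin 3 → ℝ) → Prop}
    {x0 : (Fin 3 → ℝ) → Fin 3 → ℝ} (hx : ContinuousOn x0 cube)
    (face : ∀ c ∈ cube, ∀ j, (c j = 1 → 1 ≤ x0 c j) ∧ (c j = -1 → x0 c j ≤ -1))
    (rng : ∀ c t x, P c t x → c ∈ cube ∧ 0 ≤ t ∧ t < τ ∧ x ∈ cube)
    (uniq : ∀ c t x x', P c t x → P c t x' → x = x')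
    (lt : ∀ c t x t' x', P c t x → P c t' x' → t < t' → ∀ j, |x j| < 1)
    (down : ∀ c t x t', P c t x → 0 ≤ t' → t' ≤ t → ∃ x', P c t' x')
    (zero : ∀ c t x, P c t x → P c 0 (x0 c))
    (start : ∀ c ∈ cube, x0 c ∈ cube → P c 0 (x0 c))
    (opn : ∀ c t x, P c t x → (∀ j, |x j| < 1) → ∃ t' x', t < t' ∧ P c t' x')
    (closed : ∀ (c x : ℕ → Fin 3 → ℝ) (t : ℕ → ℝ) (c' x' : Fin 3 → ℝ) (t' : ℝ),
      (∀ n, P (c n) (t n) (x n)) → Tendsto c atTop (𝓝 c') → Tendsto t atTop (𝓝 t') →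
      Tendsto x atTop (𝓝 x') → t' < τ → P c' t' x') :
    ∃ c, ∀ t, 0 ≤ t → t < τ → ∃ x, P c t x := by
  by_contra hne
  have hlp : ∀ (c x : ℕ → Fin 3 → ℝ) (t : ℕ → ℝ) (c' : Fin 3 → ℝ) (t' : ℝ),
      (∀ n, P (c n) (t n) (x n)) → Tendsto c atTop (𝓝 c') → Tendsto t atTop (𝓝 t') → t' < τ →
      ∀ F : Set (Fin 3 → ℝ), IsClosed F → (∀ n, x n ∈ F) → ∃ x', P c' t' x' ∧ x' ∈ F := by
    intro c x t c' t' h hc ht hτ F hF hxF
    obtain ⟨x', -, φ, hφ, hx'⟩ := isCompact_cube.tendsto_subseq fun n => (rng _ _ _ (h n)).2.2.2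
    exact ⟨x', closed (c ∘ φ) (x ∘ φ) (t ∘ φ) c' x' t' (fun n => h (φ n))
      (hc.comp hφ.tendsto_atTop) (ht.comp hφ.tendsto_atTop) hx' hτ,
      hF.mem_of_tendsto hx' (Eventually.of_forall fun n => hxF (φ n))⟩
  have cl : ∀ F : Set (Fin 3 → ℝ), IsClosed F →
      IsClosed (cube ∩ x0 ⁻¹' F ∪ {c | ∃ t x, P c t x ∧ x ∈ F}) := by
    intro F hF
    refine (hx.preimage_isClosed_of_isClosed isCompact_cube.isClosed hF).union
      (IsSeqClosed.isClosed fun c c' hc hcc => ?_)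
    choose t x hP hxF using hc
    obtain ⟨t', ht', φ, hφ, htt⟩ := (isCompact_Icc (a := 0) (b := τ)).tendsto_subseq
      (x := t) fun n => ⟨(rng _ _ _ (hP n)).2.1, (rng _ _ _ (hP n)).2.2.1.le⟩
    have hc2 := hcc.comp hφ.tendsto_atTop
    rcases ht'.2.lt_or_eq with h | h
    · exact ⟨t', hlp (c ∘ φ) (x ∘ φ) (t ∘ φ) c' t' (fun n => hP (φ n)) hc2 htt h F hF
        fun n => hxF (φ n)⟩
    · refine (hne ⟨c', fun s hs0 hs => ?_⟩).elim
      obtain ⟨N, hN⟩ := eventually_atTop.1 (htt.eventually (lt_mem_nhds (h ▸ hs : s < t')))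
      choose y hy using fun n => down _ _ _ s (hP (φ (n + N))) hs0 (hN (n + N) (by omega)).le
      obtain ⟨x', h1, -⟩ := hlp (fun n => c (φ (n + N))) y (fun _ => s) c' s hy
        ((tendsto_add_atTop_iff_nat N).2 hc2) tendsto_const_nhds hs univ isClosed_univ
        fun _ => mem_univ _
      exact ⟨x', h1⟩
  have two : ∀ c t x t' x' j, P c t x → P c t' x' → 1 ≤ x j → x' j ≤ -1 → False := by
    intro c t x t' x' j h h' h1 h2
    rcases lt_trichotomy t t' with h3 | h3 | h3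
    · linarith [(abs_lt.1 (lt _ _ _ _ _ h h' h3 j)).2]
    · subst h3
      rw [uniq _ _ _ _ h h'] at h1
      linarith
    · linarith [(abs_lt.1 (lt _ _ _ _ _ h' h h3 j)).1]
  have ex : ∀ x : Fin 3 → ℝ, (¬ ∀ j, |x j| < 1) → ∃ j, 1 ≤ x j ∨ x j ≤ -1 := by
    intro x h
    obtain ⟨j, hj⟩ := not_forall.1 h
    exact ⟨j, (le_abs.1 (not_lt.1 hj)).imp_right fun h => by linarith⟩
  refine pm_cover (Ap := fun j => cube ∩ x0 ⁻¹' {x | 1 ≤ x j} ∪ {c | ∃ t x, P c t x ∧ x ∈ {x | 1 ≤ x j}})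
    (Am := fun j => cube ∩ x0 ⁻¹' {x | x j ≤ -1} ∪ {c | ∃ t x, P c t x ∧ x ∈ {x | x j ≤ -1}})
    (fun j => cl _ (isClosed_le continuous_const (continuous_apply j)))
    (fun j => cl _ (isClosed_le (continuous_apply j) continuous_const)) ?_ ?_
    fun c hc j => ⟨fun h => Or.inl ⟨hc, (face c hc j).1 h⟩, fun h => Or.inl ⟨hc, (face c hc j).2 h⟩⟩
  · rintro j c (⟨-, h⟩ | ⟨t, x, h, h1⟩) (⟨-, h'⟩ | ⟨t', x', h', h2⟩)
    · have h1 : 1 ≤ x0 c j := h
      have h2 : x0 c j ≤ -1 := h'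
      linarith
    · exact two _ _ _ _ _ j (zero _ _ _ h') h' h h2
    · exact two _ _ _ _ _ j h (zero _ _ _ h) h1 h'
    · exact two _ _ _ _ _ j h h' h1 h2
  · intro c hc
    by_cases h0 : ∀ j, |x0 c j| < 1
    · have hs := start c hc fun j => (h0 j).le
      obtain ⟨s, hs'⟩ := not_forall.1 (not_exists.1 hne c)
      obtain ⟨s0, hs'⟩ := Classical.not_imp.1 hs'
      obtain ⟨sτ, hs'⟩ := Classical.not_imp.1 hs'
      have hub : s ∈ upperBounds {t | ∃ x, P c t x} := by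
        rintro t ⟨x, h⟩
        by_contra hh
        exact hs' (down _ _ _ s h s0 (not_le.1 hh).le)
      have hn : {t | ∃ x, P c t x}.Nonempty := ⟨0, _, hs⟩
      obtain ⟨u, -, hu, hm⟩ := exists_seq_tendsto_sSup hn ⟨s, hub⟩
      choose y hy using hm
      obtain ⟨x', h1, -⟩ := hlp (fun _ => c) y u c _ hy tendsto_const_nhds hu
        ((csSup_le hn hub).trans_lt sτ) univ isClosed_univ fun _ => mem_univ _
      obtain ⟨j, hj⟩ := ex x' fun h => by
        obtain ⟨t', x'', h2, h3⟩ := opn _ _ _ h1 h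
        exact (le_csSup ⟨s, hub⟩ (show t' ∈ {t | ∃ x, P c t x} from ⟨x'', h3⟩)).not_gt h2
      exact ⟨j, hj.imp (fun h => Or.inr ⟨_, x', h1, h⟩) fun h => Or.inr ⟨_, x', h1, h⟩⟩
    · obtain ⟨j, hj⟩ := ex _ h0
      exact ⟨j, hj.imp (fun h => Or.inl ⟨hc, h⟩) fun h => Or.inl ⟨hc, h⟩⟩

end Vale.Agent.P244
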