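import Vale.Agent.P244.T.Quant

/-! P244 T/TrLim: the trap is closed, and open with a margin. Helper names start with `trl_`.
Plan. `tr_closed`: for fixed `y` apply `Cv` to the constant family of points, `le_of_tendsto`,
`ge_of_tendsto`, `le_of_tendsto_of_tendsto`. `tr_open`: write `Tr` as `∀ y ∈ Icc 0 1, TrP y` (the parts
`F2`, `I` under the hypotheses `s ^ 3 ≤ y`, `y ≤ s ^ 3`). If the claim fails take an ultrafilter
`U ≤ F` on which it fails (`Filter.Frequently`, `Ultrafilter.exists_le` of `F ⊓ 𝓟 _`), choose bad points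
`y n ∈ Icc 0 1` (default `0`), a limit `y'` along `U` (`IsCompact.ultrafilter_le_nhds` for `U.map y`);
all inequalities of `TrP (1/2)` at `y'` are strict for margin `1` (`sg_pos`, `exp_pos`), so they hold
eventually (`Tendsto.eventually_lt`, `eventually_le_of_tendsto_lt`); if `y' < s ^ 3` then eventually
`y n < s ^ 3`, and so on. -/

namespace Vale.Agent.P244

open scoped ContDiff Topology
open Set Filter Real

variable {ι : Type} {F : Filter ι} {S : ι → St} {s : ι → ℝ} {S' : St} {s' : ℝ} {κ : Cst}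

theorem trl_strict (hκ : κ.Pos) (hs : s' ≤ S'.τ₀) {y : ℝ} (h : TrI κ S' (1 / 2) s' y) :
    |S'.u2 s' y| < 1 * κ.AS ∧ |S'.u1 s' y| < 1 * κ.Am ∧ (S'.τ₀ - s') ^ 3 < 8 * 1 * S'.HH s' y ∧
      |S'.EE s' y| < 1 * κ.AE * S'.sg s' y ^ 3 ∧ S'.th s' y < 1 + 1 ∧
      S'.hh s' y < (1 + 1) * κ.s ∧ 2 - 1 < S'.kk s' y := by
  have h1 : 0 < S'.HH s' y := exp_pos _
  have h2 : 0 < κ.AE * S'.sg s' y ^ 3 :=
    mul_pos (by linarith [hκ.AE]) (pow_pos (sg_pos hs y) 3)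
  exact ⟨by linarith [h.u2, hκ.AS], by linarith [h.u1, hκ.Am], by linarith [h.H],
    by linarith [h.E], by linarith [h.th], by linarith [h.h, hκ.s], by linarith [h.k]⟩

theorem trl_unif (h : Cv F S s S' s') {P : ι → ℝ → Prop} {a b : ℝ} (ha : 0 ≤ a) (hab : a ≤ b)
    (hb : b ≤ 1) (hP : ∀ G : Filter ι, ∀ (y : ι → ℝ), ∀ y' ∈ Icc a b, Pc G S s y S' s' y' →
      ∀ᶠ n in G, P n (y n)) : ∀ᶠ n in F, ∀ y ∈ Icc a b, P n y := by
  by_contra hc
  have hne : (F ⊓ 𝓟 {n | ¬ ∀ y ∈ Icc a b, P n y}).NeBot :=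
    frequently_iff_neBot.1 (not_eventually.1 hc)
  obtain ⟨U, hU⟩ := Ultrafilter.exists_le (F ⊓ 𝓟 {n | ¬ ∀ y ∈ Icc a b, P n y})
  have ex : ∀ n, ∃ y ∈ Icc a b, (¬ ∀ y ∈ Icc a b, P n y) → ¬ P n y := fun n => by
    by_cases hn : ∀ y ∈ Icc a b, P n y
    · exact ⟨a, ⟨le_rfl, hab⟩, fun h => (h hn).elim⟩
    · obtain ⟨y, hy⟩ := not_forall.1 hn
      obtain ⟨h1, h2⟩ := Classical.not_imp.1 hy
      exact ⟨y, h1, fun _ => h2⟩
  choose y hy hy' using ex
  obtain ⟨y', h1, h2⟩ := (isCompact_Icc (a := a) (b := b)).ultrafilter_le_nhds (U.map y)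
    (by
      rw [Ultrafilter.coe_map, le_principal_iff, mem_map]
      exact univ_mem' hy)
  have sub : Icc a b ⊆ Icc 0 1 := Icc_subset_Icc ha hb
  have h3 := hP U y y' h1 (h U (hU.trans inf_le_left) y y' (fun n => sub (hy n)) (sub h1) h2)
  have h4 : ∀ᶠ n in (U : Filter ι), ¬ ∀ y ∈ Icc a b, P n y :=
    le_principal_iff.1 (hU.trans inf_le_right)
  obtain ⟨n, h5, h6⟩ := (h3.and h4).exists
  exact hy' n h6 h5

theorem Tr.weaken (hκ : κ.Pos) (hs : s' ≤ S'.τ₀) (h : Tr κ S' (1 / 2) s') : Tr κ S' 1 s' := by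
  have a1 := hκ.A1
  refine ⟨fun y hy => ?_, fun y hy => ?_, fun y hy => ?_⟩
  · obtain ⟨h1, h2, h3, h4⟩ := h.F1 y hy
    exact ⟨by linarith, by linarith, by linarith, by linarith⟩
  · obtain ⟨h1, h2⟩ := h.F2 y hy
    exact ⟨by linarith, by linarith⟩
  · obtain ⟨h1, h2, h3, h4, h5, h6, h7⟩ := trl_strict hκ hs (h.I y hy)
    exact ⟨h1.le, h2.le, h3.le, h4.le, h5.le, h6.le, h7.le⟩

theorem tr_closed [F.NeBot] (hκ : κ.Pos) (h : Cv F S s S' s') (hs : s' ≤ S'.τ₀) {l : ℝ}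
    (ht : ∀ᶠ n in F, Tr κ (S n) l (s n)) : Tr κ S' l s' := by
  have s3 := hκ.s3
  have pc : ∀ y ∈ Icc (0 : ℝ) 1, Pc F S s (fun _ => y) S' s' y := fun y hy =>
    h F le_rfl _ y (fun _ => hy) hy tendsto_const_nhds
  refine ⟨fun y hy => ?_, fun y hy => ?_, fun y hy => ?_⟩
  · have p := pc y hy
    exact ⟨le_of_tendsto p.XA.abs (ht.mono fun n hn => (hn.F1 y hy).1),
      le_of_tendsto p.A2.abs (ht.mono fun n hn => (hn.F1 y hy).2.1),
      le_of_tendsto p.Xβ.abs (ht.mono fun n hn => (hn.F1 y hy).2.2.1),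
      le_of_tendsto p.β2.abs (ht.mono fun n hn => (hn.F1 y hy).2.2.2)⟩
  · have p := pc y ⟨s3.1.le.trans hy.1, hy.2⟩
    exact ⟨le_of_tendsto (p.A.sub p.A0).abs (ht.mono fun n hn => (hn.F2 y hy).1),
      le_of_tendsto (p.β.sub p.β0).abs (ht.mono fun n hn => (hn.F2 y hy).2)⟩
  · have p := pc y ⟨hy.1, hy.2.trans s3.2.le⟩
    exact ⟨le_of_tendsto (p.u2 (hy.2.trans_lt s3.2)).abs (ht.mono fun n hn => (hn.I y hy).u2),
      le_of_tendsto (p.u1 hs).abs (ht.mono fun n hn => (hn.I y hy).u1),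
      le_of_tendsto_of_tendsto (p.rem.pow 3) (p.HH.const_mul (8 * l))
        (ht.mono fun n hn => (hn.I y hy).H),
      le_of_tendsto_of_tendsto p.EE.abs ((p.sg.pow 3).const_mul (l * κ.AE))
        (ht.mono fun n hn => (hn.I y hy).E),
      le_of_tendsto p.th (ht.mono fun n hn => (hn.I y hy).th),
      le_of_tendsto p.hh (ht.mono fun n hn => (hn.I y hy).h),
      ge_of_tendsto p.kk (ht.mono fun n hn => (hn.I y hy).k)⟩

theorem tr_open (hκ : κ.Pos) (h : Cv F S s S' s') (hs : s' ≤ S'.τ₀) (ht : Tr κ S' (1 / 2) s') :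
    ∀ᶠ n in F, Tr κ (S n) 1 (s n) := by
  have s3 := hκ.s3
  have a1 := hκ.A1
  have e1 := trl_unif h (P := fun n y => |XX (S n).A (s n) y| ≤ 1 * κ.A1 ∧
      |XX (XX (S n).A) (s n) y| ≤ 1 * κ.A1 ∧ |XX (S n).β (s n) y| ≤ 1 * κ.A1 ∧
      |XX (XX (S n).β) (s n) y| ≤ 1 * κ.A1) le_rfl zero_le_one le_rfl fun G y y' hy p => by
    obtain ⟨h1, h2, h3, h4⟩ := ht.F1 y' hy
    exact (p.XA.abs.eventually_le_const (by linarith)).and
      ((p.A2.abs.eventually_le_const (by linarith)).and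
        ((p.Xβ.abs.eventually_le_const (by linarith)).and
          (p.β2.abs.eventually_le_const (by linarith))))
  have e2 := trl_unif h (P := fun n y => |(S n).A (s n) y - (S n).A 0 y| ≤ 1 ∧
      |(S n).β (s n) y - (S n).β 0 y| ≤ 1) s3.1.le s3.2.le le_rfl fun G y y' hy p => by
    obtain ⟨h1, h2⟩ := ht.F2 y' hy
    exact ((p.A.sub p.A0).abs.eventually_le_const (by linarith)).and
      ((p.β.sub p.β0).abs.eventually_le_const (by linarith))
  have e3 := trl_unif h (P := fun n y => TrI κ (S n) 1 (s n) y) le_rfl s3.1.le s3.2.le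
    fun G y y' hy p => by
      obtain ⟨h1, h2, h3, h4, h5, h6, h7⟩ := trl_strict hκ hs (ht.I y' hy)
      filter_upwards [(p.u2 (hy.2.trans_lt s3.2)).abs.eventually_le_const h1,
        (p.u1 hs).abs.eventually_le_const h2,
        (p.rem.pow 3).eventually_lt (p.HH.const_mul (8 * 1)) h3,
        p.EE.abs.eventually_lt ((p.sg.pow 3).const_mul (1 * κ.AE)) h4,
        p.th.eventually_le_const h5, p.hh.eventually_le_const h6,
        p.kk.eventually_const_le h7] with n a1 a2 a3 a4 a5 a6 a7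
      exact ⟨a1, a2, a3.le, a4.le, a5, a6, a7⟩
  filter_upwards [e1, e2, e3] with n b1 b2 b3
  exact ⟨b1, b2, b3⟩

end Vale.Agent.P244
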